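import Vale.Agent.P062.Cert.Final

namespace Vale.Agent.Results.P062.SnakyMakerWins

open Vale.Agent.P062

theorem result : MakerWins := by
  obtain ⟨n, h⟩ := Win.force winRoot
  exact makerWins_of_force h

end Vale.Agent.Results.P062.SnakyMakerWins
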