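import Vale.Agent.P062.Cert.Final
import Vale.Agent.P062.Play

namespace Vale.Agent.Results.P062.SnakyPlay

open Vale.Agent.P062 Vale.Agent.P062.Play

def toV (c : Cell) : Fin 2 → ℤ := ![c.1, c.2]

def toC (v : Fin 2 → ℤ) : Cell := (v 0, v 1)

theorem toC_toV (c : Cell) : toC (toV c) = c := rfl

theorem toV_toC (v : Fin 2 → ℤ) : toV (toC v) = v := by
  ext i; fin_cases i <;> rfl

theorem toV_inj {a b : Cell} (h : toV a = toV b) : a = b := by
  rw [← toC_toV a, h, toC_toV]

theorem toC_inj {a b : Fin 2 → ℤ} (h : toC a = toC b) : a = b := by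
  rw [← toV_toC a, h, toV_toC]

def odds : List (Fin 2 → ℤ) → List Cell := fun l =>
  (List.range (l.length / 2)).map fun i => toC (l.getD (2 * i + 1) 0)

theorem odds_past (p : ℕ → Fin 2 → ℤ) (k : ℕ) :
    odds (past p (2 * k)) = history (fun n => toC (p (2 * n + 1))) k := by
  unfold odds history
  have hl : (past p (2 * k)).length / 2 = k := by simp [past]
  rw [hl]
  apply List.map_congr_left
  intro i hi
  have hi' : 2 * i + 1 < 2 * k := by
    have := List.mem_range.1 hi; omega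
  rw [List.getD_eq_getElem _ _ (by simpa [past] using hi')]
  simp [past]

theorem mem_S {s : Fin 2 → ℤ} : s ∈ S ↔ ∃ d ∈ snaky, s = toV d := by
  simp [S, snaky, toV]

theorem copy_of {P : Finset Cell} (h : Vale.Agent.P062.IsAllowedCopy P) :
    Play.IsAllowedCopy {c | ∃ d ∈ P, c = toV d} := by
  obtain ⟨t, e, f, he, hf, h⟩ := h
  rcases h with rfl | rfl
  · refine ⟨toV t, !![e, 0; 0, f], ⟨1, ![e, f], ?_, ?_⟩, ?_⟩
    · intro i; fin_cases i <;> simpa
    · intro i j; fin_cases i <;> fin_cases j <;> simp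
    · ext c
      constructor
      · rintro ⟨d, hd, rfl⟩
        obtain ⟨s, hs, rfl⟩ := Finset.mem_image.1 hd
        refine ⟨toV s, mem_S.2 ⟨s, hs, rfl⟩, ?_⟩
        ext i; fin_cases i <;> simp [toV, Matrix.mulVec, dotProduct, mul_comm]
      · rintro ⟨s, hs, rfl⟩
        obtain ⟨d, hd, rfl⟩ := mem_S.1 hs
        refine ⟨_, Finset.mem_image_of_mem _ hd, ?_⟩
        ext i; fin_cases i <;> simp [toV, Matrix.mulVec, dotProduct, mul_comm]
  · refine ⟨toV t, !![0, e; f, 0], ⟨Equiv.swap 0 1, ![e, f], ?_, ?_⟩, ?_⟩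
    · intro i; fin_cases i <;> simpa
    · intro i j; fin_cases i <;> fin_cases j <;> simp
    · ext c
      constructor
      · rintro ⟨d, hd, rfl⟩
        obtain ⟨s, hs, rfl⟩ := Finset.mem_image.1 hd
        refine ⟨toV s, mem_S.2 ⟨s, hs, rfl⟩, ?_⟩
        ext i; fin_cases i <;> simp [toV, Matrix.mulVec, dotProduct, mul_comm]
      · rintro ⟨s, hs, rfl⟩
        obtain ⟨d, hd, rfl⟩ := mem_S.1 hs
        refine ⟨_, Finset.mem_image_of_mem _ hd, ?_⟩
        ext i; fin_cases i <;> simp [toV, Matrix.mulVec, dotProduct, mul_comm]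

theorem result : ∃ σ : List (Fin 2 → ℤ) → Fin 2 → ℤ,
    ∀ p : ℕ → Fin 2 → ℤ, FollowsStrategy σ p → BreakerAlwaysLegal p →
      ∃ n, MakerHasWonLegally p n := by
  obtain ⟨m, hm⟩ := Win.force winRoot
  obtain ⟨σ, hσ⟩ := makerWins_of_force hm
  refine ⟨fun l => toV (σ (odds l)), fun p hp hb => ?_⟩
  set b : ℕ → Cell := fun n => toC (p (2 * n + 1)) with hbdef
  have hmove : ∀ k, makerMove σ b k = toC (p (2 * k)) := by
    intro k
    rw [hp k]
    show _ = toC (toV (σ (odds (past p (2 * k)))))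
    rw [odds_past, toC_toV]
    rfl
  have hleg : BreakerLegal σ b := by
    intro n
    refine ⟨fun i hi hh => ?_, fun i hi hh => ?_⟩
    · exact hb n (2 * i + 1) (by omega) (toC_inj hh)
    · rw [hmove] at hh
      exact hb n (2 * i) (by omega) (toC_inj hh)
  obtain ⟨n, hn, P, hP, hPn⟩ := hσ b hleg
  refine ⟨n, fun k hk j hj => ?_, _, copy_of hP, ?_⟩
  · obtain ⟨h1, h2⟩ := hn k hk
    rcases Nat.even_or_odd' j with ⟨i, rfl | rfl⟩
    · intro hh
      exact h1 i (by omega) (by rw [hmove, hmove, hh])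
    · intro hh
      exact h2 i (by omega) (by rw [hmove, hh])
  · rintro c ⟨d, hd, rfl⟩
    obtain ⟨i, hi, h⟩ := hPn d hd
    refine ⟨i, hi, ?_⟩
    rw [hmove] at h
    rw [← h, toV_toC]

end Vale.Agent.Results.P062.SnakyPlay
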